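import Vale.Agent.Lib.P190.FClosedNormal

/-!
Small Cohen-Macaulay modules without a Frobenius splitting.  If `R` is F-finite with perfect residue
field, the ideals `(x₁^t, …, x_i^t)` are Frobenius closed and the local cohomology has finite length
in its elementary form, then `F_* R / R` is a small Cohen-Macaulay module.  For complete normal
domains of dimension three the hypothesis on local cohomology is not needed.
-/

namespace Vale.Agent.Results.P190.A0_fclosed

open RingTheory.Sequence IsLocalRing

universe u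

/-- `R` has a small Cohen-Macaulay module: a nonzero finitely generated module with a regular
sequence of length `dim R` inside the maximal ideal. -/
def HasSmallCM (R : Type u) [CommRing R] [IsLocalRing R] : Prop :=
  ∃ (M : Type u) (_ : AddCommGroup M) (_ : Module R M) (_ : Module.Finite R M)
    (_ : Nontrivial M) (rs : List R), IsRegular M rs ∧ (∀ x ∈ rs, x ∈ maximalIdeal R) ∧
      (rs.length : WithBot ℕ∞) = ringKrullDim R

/-- `R` is F-finite (its Frobenius map is module-finite) with perfect residue field (every element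
is a `p`-th power modulo the maximal ideal). -/
def FFinitePerfect (R : Type u) [CommRing R] [IsLocalRing R] (p : ℕ) [Fact p.Prime] [CharP R p] :
    Prop :=
  (frobenius R p).Finite ∧ ∀ a : R, ∃ b : R, a - b ^ p ∈ maximalIdeal R

/-- The ideals `(x₁^t, …, x_i^t)`, `t ≥ 1`, are Frobenius closed:
`r ^ p ∈ (x₁^(t p), …, x_i^(t p))` forces `r ∈ (x₁^t, …, x_i^t)`. -/
def ClosedPowers {R : Type u} [CommRing R] (p : ℕ) (xs : List R) : Prop :=
  ∀ (t i : ℕ) (r : R), 1 ≤ t →
    r ^ p ∈ Ideal.ofList ((xs.take i).map (· ^ (t * p))) →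
      r ∈ Ideal.ofList ((xs.take i).map (· ^ t))

/-- The `x_{i+1}`-power torsion of `R / (x₁^t, …, x_i^t)` has length bounded independently of `t`. -/
def BoundedTorsion {R : Type u} [CommRing R] (xs : List R) : Prop :=
  ∀ (i : ℕ) (hi : i < xs.length), ∃ C : ℕ, ∀ t : ℕ,
    Module.length R (Submodule.torsion' R (R ⧸ Ideal.ofList ((xs.take i).map (· ^ t)))
      (Submonoid.powers xs[i])) ≤ C

/-- Part one: `R` Noetherian local, F-finite with perfect residue field, `x₁, …, x_d` in the maximal
ideal, `d = dim R`, with `ClosedPowers` and `BoundedTorsion`.  Part two: `R` a complete normal domain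
of dimension three, F-finite with perfect residue field, in which `(x, y)` and `(x, y, z)` are
Frobenius closed for every system of parameters `x, y, z`.  In both cases `R` has a small
Cohen-Macaulay module. -/
theorem result :
    (∀ {R : Type u} [CommRing R] [IsLocalRing R] [IsNoetherianRing R] (p : ℕ)
      [Fact p.Prime] [CharP R p] (_ : FFinitePerfect R p)
      (xs : List R) (_ : ∀ x ∈ xs, x ∈ maximalIdeal R)
      (_ : (xs.length : WithBot ℕ∞) = ringKrullDim R)
      (_ : ClosedPowers p xs) (_ : BoundedTorsion xs), HasSmallCM R) ∧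
    (∀ {R : Type u} [CommRing R] [IsDomain R] [IsLocalRing R] [IsNoetherianRing R]
      [IsAdicComplete (maximalIdeal R) R] [IsIntegrallyClosed R]
      (_ : ringKrullDim R = 3) (p : ℕ) [Fact p.Prime] [CharP R p] (_ : FFinitePerfect R p)
      (_ : ∀ x y z : R, x ∈ maximalIdeal R → y ∈ maximalIdeal R → z ∈ maximalIdeal R →
        maximalIdeal R ≤ (Ideal.span {x, y, z}).radical →
        ∀ r : R, r ^ p ∈ Ideal.span {x ^ p, y ^ p} → r ∈ Ideal.span {x, y})
      (_ : ∀ x y z : R, x ∈ maximalIdeal R → y ∈ maximalIdeal R → z ∈ maximalIdeal R →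
        maximalIdeal R ≤ (Ideal.span {x, y, z}).radical →
        ∀ r : R, r ^ p ∈ Ideal.span {x ^ p, y ^ p, z ^ p} → r ∈ Ideal.span {x, y, z}),
      HasSmallCM R) := by
  refine ⟨?_, ?_⟩
  · rintro R _ _ _ p _ _ ⟨hfin, hperf⟩ xs hxs hdim hcl hflc
    obtain ⟨M, i1, i2, i3, i4, t, ht, hreg⟩ :=
      Vale.Agent.Lib.P190.exists_small_CM_of_closed_frobenius' p hfin hperf xs hxs hdim hcl hflc
    refine ⟨M, i1, i2, i3, i4, xs.map (· ^ t), hreg, ?_, ?_⟩
    · intro x hx
      obtain ⟨y, hy, rfl⟩ := List.mem_map.1 hx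
      exact Ideal.pow_mem_of_mem _ (hxs y hy) _ (Nat.pos_of_ne_zero ht)
    · rw [List.length_map]
      exact hdim
  · rintro R _ _ _ _ _ _ hdim p _ _ ⟨hfin, hperf⟩ hcl2 hcl3
    exact Vale.Agent.Lib.P190.exists_small_CM_complete_normal3_closed hdim p hfin hperf hcl2 hcl3

end Vale.Agent.Results.P190.A0_fclosed
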