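import Vale.Agent.Lib.P190.SummandsGraded

/-!
A pigeonhole principle for the summands of `F^e_* R`: each of the `d` elementary local cohomology
modules of finite length can only obstruct boundedly many summands, so when `F^e_* R` has more
summands than that bound, one of the summands is a small Cohen-Macaulay module.  For gradings by
`ZMod (p ^ e)` with homogeneous maximal ideal, no condition on the residue field is needed.
-/

namespace Vale.Agent.Results.P190.A0_fsummands

open RingTheory.Sequence IsLocalRing

universe u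

/-- `R` has a small Cohen-Macaulay module: a nonzero finitely generated module with a regular
sequence of length `dim R` inside the maximal ideal. -/
def HasSmallCM (R : Type u) [CommRing R] [IsLocalRing R] : Prop :=
  ∃ (M : Type u) (_ : AddCommGroup M) (_ : Module R M) (_ : Module.Finite R M)
    (_ : Nontrivial M) (rs : List R), IsRegular M rs ∧ (∀ x ∈ rs, x ∈ maximalIdeal R) ∧
      (rs.length : WithBot ℕ∞) = ringKrullDim R

/-- `E` is a family of `n` nonzero orthogonal idempotent endomorphisms of the `R`-module `F^e_* R`: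
additive maps of `R`, linear over the `p ^ e`-th powers.  A direct sum decomposition of `F^e_* R` into
`n` nonzero modules gives such a family, its projections. -/
def IsSummandFamily {R : Type u} [CommRing R] (p e : ℕ) {n : ℕ} (E : Fin n → (R →+ R)) : Prop :=
  (∀ l r z, E l (r ^ p ^ e * z) = r ^ p ^ e * E l z) ∧
    (∀ l l' z, l ≠ l' → E l (E l' z) = 0) ∧ (∀ l z, E l (E l z) = E l z) ∧ ∀ l, E l ≠ 0

/-- The `x_{i+1}`-power torsion of `R / (x₁^t, …, x_i^t)` has length at most `C` for all `i` and `t`:
the elementary form of finite length local cohomology. -/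
def TorsionBound {R : Type u} [CommRing R] (xs : List R) (C : ℕ) : Prop :=
  ∀ (i : ℕ) (hi : i < xs.length) (t : ℕ),
    Module.length R (Submodule.torsion' R (R ⧸ Ideal.ofList ((xs.take i).map (· ^ t)))
      (Submonoid.powers xs[i])) ≤ C

/-- The residue field is spanned by `v₁, …, v_c` over its `p ^ e`-th powers. -/
def ResidueSpan {R : Type u} [CommRing R] [IsLocalRing R] (p e : ℕ) {c : ℕ} (v : Fin c → R) : Prop :=
  ∀ a : R, ∃ b : Fin c → R, a - ∑ i, v i * b i ^ p ^ e ∈ maximalIdeal R

/-- A grading by `ZMod (p ^ e)` in which the maximal ideal is homogeneous: every homogeneous element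
of nonzero degree lies in it. -/
def HomogeneousMax {R : Type u} [CommRing R] [IsLocalRing R] {p e : ℕ}
    (𝒜 : ZMod (p ^ e) → AddSubgroup R) : Prop :=
  ∀ j, j ≠ 0 → ∀ x ∈ 𝒜 j, x ∈ maximalIdeal R

/-- Let `R` be Noetherian local of characteristic `p`, F-finite.
Part one: if `x₁, …, x_d ∈ m`, `d = dim R`, have torsion bound `C`, if the residue field is spanned by
`c` elements over its `p ^ e`-th powers, and `F^e_* R` has `n > d c C` nonzero orthogonal summands,
then `R` has a small Cohen-Macaulay module.
Part two: the same when `R` has a grading by `ZMod (p ^ e)` with homogeneous maximal ideal and more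
than `d C` nonzero components; nothing on the residue field.
Part three: a complete normal domain of dimension three with perfect residue field has a small
Cohen-Macaulay module as soon as the number of nonzero summands of the `F^e_* R` is unbounded.
Part four: a complete normal domain of dimension three has a small Cohen-Macaulay module as soon as
it has gradings by the `ZMod (p ^ e)` with homogeneous maximal ideal and unboundedly many nonzero
components. -/
theorem result :
    (∀ {R : Type u} [CommRing R] [IsLocalRing R] [IsNoetherianRing R] (p : ℕ) [Fact p.Prime]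
      [CharP R p] (_ : (frobenius R p).Finite) (e c : ℕ) (v : Fin c → R) (_ : ResidueSpan p e v)
      (xs : List R) (_ : ∀ x ∈ xs, x ∈ maximalIdeal R)
      (_ : (xs.length : WithBot ℕ∞) = ringKrullDim R) (C : ℕ) (_ : TorsionBound xs C)
      (n : ℕ) (E : Fin n → (R →+ R)) (_ : IsSummandFamily p e E) (_ : xs.length * (c * C) < n),
      HasSmallCM R) ∧
    (∀ {R : Type u} [CommRing R] [IsLocalRing R] [IsNoetherianRing R] (p : ℕ) [Fact p.Prime]
      [CharP R p] (_ : (frobenius R p).Finite) (e : ℕ) (𝒜 : ZMod (p ^ e) → AddSubgroup R)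
      (_ : GradedRing 𝒜) (_ : HomogeneousMax 𝒜)
      (xs : List R) (_ : ∀ x ∈ xs, x ∈ maximalIdeal R)
      (_ : (xs.length : WithBot ℕ∞) = ringKrullDim R) (C : ℕ) (_ : TorsionBound xs C)
      (_ : xs.length * C < Set.ncard {j : ZMod (p ^ e) | 𝒜 j ≠ ⊥}),
      HasSmallCM R) ∧
    (∀ {R : Type u} [CommRing R] [IsDomain R] [IsLocalRing R] [IsNoetherianRing R]
      [IsAdicComplete (maximalIdeal R) R] [IsIntegrallyClosed R]
      (_ : ringKrullDim R = 3) (p : ℕ) [Fact p.Prime] [CharP R p] (_ : (frobenius R p).Finite)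
      (_ : ∀ a : R, ∃ b : R, a - b ^ p ∈ maximalIdeal R)
      (_ : ∀ N : ℕ, ∃ (e n : ℕ) (E : Fin n → (R →+ R)), N < n ∧ IsSummandFamily p e E),
      HasSmallCM R) ∧
    (∀ {R : Type u} [CommRing R] [IsDomain R] [IsLocalRing R] [IsNoetherianRing R]
      [IsAdicComplete (maximalIdeal R) R] [IsIntegrallyClosed R]
      (_ : ringKrullDim R = 3) (p : ℕ) [Fact p.Prime] [CharP R p] (_ : (frobenius R p).Finite)
      (_ : ∀ N : ℕ, ∃ (e : ℕ) (𝒜 : ZMod (p ^ e) → AddSubgroup R) (_ : GradedRing 𝒜),
        HomogeneousMax 𝒜 ∧ N < Set.ncard {j : ZMod (p ^ e) | 𝒜 j ≠ ⊥}),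
      HasSmallCM R) := by
  refine ⟨?_, ?_, ?_, ?_⟩
  · intro R _ _ _ p _ _ hfin e c v hv xs hxs hdim C hflc n E hE hcard
    obtain ⟨hlin, horth, hidem, hne⟩ := hE
    obtain ⟨M, i1, i2, i3, i4, hM⟩ :=
      Vale.Agent.Lib.P190.exists_small_CM_of_summands p hfin e c v hv xs hxs C hflc n E hlin horth
        hidem hne hcard
    exact ⟨M, i1, i2, i3, i4, xs, hM, hxs, hdim⟩
  · intro R _ _ _ p _ _ hfin e 𝒜 i𝒜 hm xs hxs hdim C hflc hcard
    obtain ⟨M, i1, i2, i3, i4, hM⟩ :=
      Vale.Agent.Lib.P190.exists_small_CM_of_grading p e 𝒜 hfin hm xs hxs C hflc hcard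
    exact ⟨M, i1, i2, i3, i4, xs, hM, hxs, hdim⟩
  · intro R _ _ _ _ _ _ hdim p _ _ hfin hperf hsum
    refine Vale.Agent.Lib.P190.exists_small_CM_complete_normal3_summands hdim p hfin hperf ?_
    intro N
    obtain ⟨e, n, E, hN, hlin, horth, hidem, hne⟩ := hsum N
    exact ⟨e, n, E, hN, hlin, horth, hidem, hne⟩
  · intro R _ _ _ _ _ _ hdim p _ _ hfin hsum
    exact Vale.Agent.Lib.P190.exists_small_CM_complete_normal3_graded hdim p hfin hsum

end Vale.Agent.Results.P190.A0_fsummands
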