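import Vale.Agent.Lib.P190.CompleteR

/-!
Every complete local F-finite F-split ring of dimension three (not assumed to be a domain) has a small
Cohen-Macaulay module.
-/

namespace Vale.Agent.Results.P190.A1_ring3

open RingTheory.Sequence IsLocalRing

universe u

/-- `R` is a complete Noetherian local ring of Krull dimension three and prime characteristic `p`,
F-finite (its Frobenius map is module-finite), and F-split: there is an additive `φ : R → R` with
`φ (r ^ p * s) = r * φ s` and `φ 1 = 1`.  Then `R` has a small Cohen-Macaulay module: a nonzero
finitely generated module with a regular sequence of length `dim R` inside the maximal ideal. -/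
theorem result {R : Type u} [CommRing R] [IsLocalRing R] [IsNoetherianRing R]
    [IsAdicComplete (maximalIdeal R) R] (hdim : ringKrullDim R = 3)
    (p : ℕ) [Fact p.Prime] [CharP R p] (hfin : (frobenius R p).Finite)
    (φ : R →+ R) (hφ : ∀ r s, φ (r ^ p * s) = r * φ s) (hφ1 : φ 1 = 1) :
    ∃ (M : Type u) (_ : AddCommGroup M) (_ : Module R M) (_ : Module.Finite R M)
      (_ : Nontrivial M) (rs : List R), IsRegular M rs ∧ (∀ x ∈ rs, x ∈ maximalIdeal R) ∧
        (rs.length : WithBot ℕ∞) = ringKrullDim R :=
  Vale.Agent.Lib.P190.exists_small_CM_complete3_ring hdim p hfin φ hφ hφ1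

end Vale.Agent.Results.P190.A1_ring3
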