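import Vale.Agent.Lib.P190.Main

/-!
Small Cohen-Macaulay modules from the cone construction.

Let `R` be a local ring which is module-finite over a subring `A`, where `A` is a Cohen-Macaulay
Noetherian local domain (for instance regular).  If `pd_A R ≤ 1` and `Ext¹_A(R, A)` is a cyclic
`R`-module (the action being induced by multiplication on `R`), then `R` has a small Cohen-Macaulay
module.
-/

namespace Vale.Agent.Results.P190.A_main

open CategoryTheory Abelian RingTheory.Sequence IsLocalRing

universe u

theorem result {A R : Type u} [CommRing A] [IsDomain A] [IsLocalRing A] [IsNoetherianRing A]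
    [CommRing R] [IsLocalRing R] [Algebra A R] [Module.Finite A R] [FaithfulSMul A R]
    (as : List A) (has : IsRegular A as) (hlen : (as.length : WithBot ℕ∞) = ringKrullDim A)
    (hpd : HasProjectiveDimensionLT (ModuleCat.of A R) 2)
    (e : Ext (ModuleCat.of A R) (ModuleCat.of A A) 1)
    (hcyc : ∀ t : Ext (ModuleCat.of A R) (ModuleCat.of A A) 1, ∃ r : R,
      t = (Ext.mk₀ (ModuleCat.ofHom (LinearMap.mulLeft A r))).comp e (zero_add 1)) :
    ∃ (M : Type u) (_ : AddCommGroup M) (_ : Module R M) (_ : Module.Finite R M) (_ : Nontrivial M)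
      (rs : List R), IsRegular M rs ∧ (∀ x ∈ rs, x ∈ maximalIdeal R) ∧
        (rs.length : WithBot ℕ∞) = ringKrullDim R :=
  Vale.Agent.Lib.P190.exists_small_CM as has hlen hpd e hcyc

end Vale.Agent.Results.P190.A_main
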