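import Vale.Agent.Lib.P190.Endo

/-!
F-split F-finite local rings with finite length local cohomology have small Cohen-Macaulay modules.

The hypothesis on `xs = x_1, ..., x_d` is the elementary form of finite length of the local
cohomology modules `H^i_m(R)`, `i < d`: the `x_{i+1}`-power torsion of `R / (x_1^t, ..., x_i^t)` has
length bounded independently of `t`.  The module is a complement of a free summand of rank
`[k : k^p]` in `F_* R`.
-/

namespace Vale.Agent.Results.P190.B_fsplit

open RingTheory.Sequence IsLocalRing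

universe u

theorem result {R : Type u} [CommRing R] [IsLocalRing R] [IsNoetherianRing R] (p : ℕ)
    [Fact p.Prime] [CharP R p]
    (hfin : (frobenius R p).Finite)
    (φ : R →+ R) (hφ : ∀ r s, φ (r ^ p * s) = r * φ s) (hφ1 : φ 1 = 1)
    (xs : List R) (hxs : ∀ x ∈ xs, x ∈ maximalIdeal R)
    (hdim : (xs.length : WithBot ℕ∞) = ringKrullDim R)
    (hflc : ∀ (i : ℕ) (hi : i < xs.length), ∃ C : ℕ, ∀ t : ℕ,
      Module.length R (Submodule.torsion' R (R ⧸ Ideal.ofList ((xs.take i).map (· ^ t)))
        (Submonoid.powers xs[i])) ≤ C) :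
    ∃ (M : Type u) (_ : AddCommGroup M) (_ : Module R M) (_ : Module.Finite R M)
      (_ : Nontrivial M) (rs : List R), IsRegular M rs ∧ (∀ x ∈ rs, x ∈ maximalIdeal R) ∧
        (rs.length : WithBot ℕ∞) = ringKrullDim R :=
  Vale.Agent.Lib.P190.exists_small_CM_of_Fsplit p hfin φ hφ hφ1 xs hxs hdim hflc

end Vale.Agent.Results.P190.B_fsplit
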