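import Vale.Agent.Lib.P190.Domain2

/-!
F-split F-finite local domains of dimension three, module-finite over a regular local ring, with local
module-finite normalization, have small Cohen-Macaulay modules.  The splitting extends to the
normalization through the conductor; no hypothesis on local cohomology is assumed.
-/

namespace Vale.Agent.Results.P190.D_domain3

open RingTheory.Sequence IsLocalRing

universe u

/-- `A` is a regular local ring of dimension three with regular system of parameters `a₁, a₂, a₃`;
`R` is a local domain, module-finite over `A`; `S` is the normalization of `R`, assumed local and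
module-finite over `R`: a normal domain, module-finite over `R` and contained in its fraction field. -/
theorem result {A R S : Type u} [CommRing A] [IsDomain A] [IsLocalRing A] [IsNoetherianRing A]
    [IsIntegrallyClosed A] [CommRing R] [IsDomain R] [IsLocalRing R] [Algebra A R]
    [Module.Finite A R] [FaithfulSMul A R] [CommRing S] [IsDomain S] [IsLocalRing S]
    [IsIntegrallyClosed S] [Algebra R S] [Module.Finite R S] [FaithfulSMul R S]
    (hbir : ∀ s : S, ∃ r d : R, d ≠ 0 ∧ algebraMap R S d * s = algebraMap R S r)
    (a₁ a₂ a₃ : A) (hreg : IsRegular A [a₁, a₂, a₃])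
    (hm : maximalIdeal A = Ideal.span {a₁, a₂, a₃})
    (p : ℕ) [Fact p.Prime] [CharP R p] (hfin : (frobenius R p).Finite)
    (φ : R →+ R) (hφ : ∀ r s, φ (r ^ p * s) = r * φ s) (hφ1 : φ 1 = 1) :
    ringKrullDim R = 3 ∧
    ∃ (M : Type u) (_ : AddCommGroup M) (_ : Module R M) (_ : Module.Finite R M)
      (_ : Nontrivial M) (rs : List R), IsRegular M rs ∧ (∀ x ∈ rs, x ∈ maximalIdeal R) ∧
        (rs.length : WithBot ℕ∞) = ringKrullDim R := by
  obtain ⟨h1, -, h2, h3⟩ := Vale.Agent.Lib.P190.regular_elementwise a₁ a₂ a₃ hreg
  refine ⟨?_, Vale.Agent.Lib.P190.exists_small_CM_domain3 hbir a₁ a₂ a₃ hreg hm p hfin φ hφ hφ1⟩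
  rw [Vale.Agent.Lib.P190.ringKrullDim_eq_of_integral (A := A) (R := R),
    Vale.Agent.Lib.P190.ringKrullDim_eq_three a₁ a₂ a₃ hm h1 h2 h3]

end Vale.Agent.Results.P190.D_domain3
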