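import Vale.Agent.Lib.P190.CompleteZ

/-!
Every complete local F-finite F-split domain of dimension three has a small Cohen-Macaulay module.
Nothing is assumed beyond the stated hypotheses: Cohen's structure theorem, normality of power series
rings, finiteness and locality of the normalization, and the whole of the argument are proved here.
-/

namespace Vale.Agent.Results.P190.E_complete3

open RingTheory.Sequence IsLocalRing

universe u

/-- `R` is a complete Noetherian local domain of Krull dimension three and prime characteristic `p`,
F-finite (its Frobenius map is module-finite), and F-split: there is an additive `φ : R → R` with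
`φ (r ^ p * s) = r * φ s` and `φ 1 = 1`.  Then `R` has a small Cohen-Macaulay module: a nonzero
finitely generated module with a regular sequence of length `dim R` inside the maximal ideal. -/
theorem result {R : Type u} [CommRing R] [IsDomain R] [IsLocalRing R] [IsNoetherianRing R]
    [IsAdicComplete (maximalIdeal R) R] (hdim : ringKrullDim R = 3)
    (p : ℕ) [Fact p.Prime] [CharP R p] (hfin : (frobenius R p).Finite)
    (φ : R →+ R) (hφ : ∀ r s, φ (r ^ p * s) = r * φ s) (hφ1 : φ 1 = 1) :
    ∃ (M : Type u) (_ : AddCommGroup M) (_ : Module R M) (_ : Module.Finite R M)
      (_ : Nontrivial M) (rs : List R), IsRegular M rs ∧ (∀ x ∈ rs, x ∈ maximalIdeal R) ∧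
        (rs.length : WithBot ℕ∞) = ringKrullDim R :=
  Vale.Agent.Lib.P190.exists_small_CM_complete3 hdim p hfin φ hφ hφ1

end Vale.Agent.Results.P190.E_complete3
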